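import Vale.Agent.P170.Final

namespace Vale.Agent.Results.P170.Threshold

/-- Proper `k`-clauses on `n` variables: sets of `k` literals (variable, sign) on distinct
variables. -/
def Clause (n k : ℕ) : Type :=
  {C : Finset (Fin n × Bool) // C.card = k ∧ Set.InjOn Prod.fst (C : Set (Fin n × Bool))}

/-- A sequence of clauses is satisfiable if some assignment makes a literal of each clause true. -/
def Satisfiable {n k m : ℕ} (F : Fin m → Clause n k) : Prop :=
  ∃ σ : Fin n → Bool, ∀ i, ∃ l ∈ (F i).1, σ l.1 = l.2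

/-- `P_{k,n}(m)`: the fraction of satisfiable sequences among all sequences of `m` clauses. -/
noncomputable def satProb (k n m : ℕ) : ℝ :=
  (Nat.card {F : Fin m → Clause n k // Satisfiable F} : ℝ) / (Nat.card (Fin m → Clause n k) : ℝ)

theorem result (k : ℕ) (hk : 3 ≤ k) : ∃ α : ℝ, 0 < α ∧
    (∀ c : ℝ, 0 ≤ c → c < α →
      Filter.Tendsto (fun n : ℕ => satProb k n ⌊c * n⌋₊) Filter.atTop (nhds 1)) ∧
    (∀ c : ℝ, α < c →
      Filter.Tendsto (fun n : ℕ => satProb k n ⌊c * n⌋₊) Filter.atTop (nhds 0)) :=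
  Vale.Agent.P170.threshold k hk

end Vale.Agent.Results.P170.Threshold
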